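import Vale.Agent.Lib.P335.BasicAvg

/-!
# Abstract facts on commuting averaging operators
-/

namespace Vale.Agent.Lib.P335
open Finset

section AbsComm
variable {α : Type} [DecidableEq α] (Ω : Finset α)

/-- transport of a class sum along a rectangle completion -/
theorem rect_sum (r1 r2 : α → α → Prop) [DecidableRel r1] [DecidableRel r2]
    (h1 : Equivalence r1) (h2 : Equivalence r2) (S : α → Prop)
    (hS2 : ∀ x ∈ Ω, ∀ y ∈ Ω, S x → r2 x y → S y)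
    (H : ∀ x ∈ Ω, S x → ∀ y ∈ Ω, ∀ z ∈ Ω, r1 x y → r2 x z → ∃ w ∈ Ω, r2 y w ∧ r1 z w)
    (U : ∀ w ∈ Ω, S w → ∀ w' ∈ Ω, r1 w w' → r2 w w' → w = w')
    {x y : α} (hx : x ∈ Ω) (hSx : S x) (hy : y ∈ Ω) (hSy : S y) (hxy : r1 x y) (m : α → α)
    (hm : ∀ z ∈ fib Ω r2 x, m z ∈ Ω ∧ r2 y (m z) ∧ r1 z (m z)) (g : α → ℝ) :
    ∑ u ∈ fib Ω r2 y, g u = ∑ z ∈ fib Ω r2 x, g (m z) := by
  symm
  apply Finset.sum_bij (fun z _ => m z)
  · intro z hz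
    obtain ⟨a, b, _⟩ := hm z hz
    exact Finset.mem_filter.mpr ⟨a, b⟩
  · intro z hz z' hz' he
    obtain ⟨_, _, c⟩ := hm z hz
    obtain ⟨_, _, c'⟩ := hm z' hz'
    obtain ⟨hzO, hxz⟩ := Finset.mem_filter.mp hz
    obtain ⟨hzO', hxz'⟩ := Finset.mem_filter.mp hz'
    have he' : m z = m z' := he
    apply U z hzO (hS2 x hx z hzO hSx hxz) z' hzO'
    · rw [← he'] at c'
      exact h1.trans c (h1.symm c')
    · exact h2.trans (h2.symm hxz) hxz'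
  · intro u hu
    obtain ⟨huO, hyu⟩ := Finset.mem_filter.mp hu
    obtain ⟨z, hzO, hxz, huz⟩ := H y hy hSy x hx u huO (h1.symm hxy) hyu
    have hz : z ∈ fib Ω r2 x := Finset.mem_filter.mpr ⟨hzO, hxz⟩
    refine ⟨z, hz, ?_⟩
    obtain ⟨a, b, c⟩ := hm z hz
    symm
    apply U u huO (hS2 y hy u huO hSy hyu) (m z) a
    · exact h1.trans huz c
    · exact h2.trans (h2.symm hyu) b
  · intro z _
    rfl

/-- rectangle criterion for the commutation of two averaging operators, on a sector `S` closed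
under both relations -/
theorem cE_comm_of_rect (r1 r2 : α → α → Prop) [DecidableRel r1] [DecidableRel r2]
    (h1 : Equivalence r1) (h2 : Equivalence r2) (S : α → Prop)
    (hS1 : ∀ x ∈ Ω, ∀ y ∈ Ω, S x → r1 x y → S y)
    (hS2 : ∀ x ∈ Ω, ∀ y ∈ Ω, S x → r2 x y → S y)
    (H : ∀ x ∈ Ω, S x → ∀ y ∈ Ω, ∀ z ∈ Ω, r1 x y → r2 x z → ∃ w ∈ Ω, r2 y w ∧ r1 z w)
    (U : ∀ w ∈ Ω, S w → ∀ w' ∈ Ω, r1 w w' → r2 w w' → w = w')
    (f : α → ℝ) {x : α} (hx : x ∈ Ω) (hSx : S x) :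
    cE Ω r1 (cE Ω r2 f) x = cE Ω r2 (cE Ω r1 f) x := by
  classical
  have H' : ∀ y z : α, ∃ w : α, y ∈ fib Ω r1 x → z ∈ fib Ω r2 x → (w ∈ Ω ∧ r2 y w ∧ r1 z w) := by
    intro y z
    by_cases hy : y ∈ fib Ω r1 x
    · by_cases hz : z ∈ fib Ω r2 x
      · obtain ⟨hyO, hxy⟩ := Finset.mem_filter.mp hy
        obtain ⟨hzO, hxz⟩ := Finset.mem_filter.mp hz
        obtain ⟨w, hw⟩ := H x hx hSx y hyO z hzO hxy hxz
        exact ⟨w, fun _ _ => hw⟩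
      · exact ⟨x, fun _ h => absurd h hz⟩
    · exact ⟨x, fun h _ => absurd h hy⟩
  choose m hm using H'
  have Hs : ∀ x ∈ Ω, S x → ∀ y ∈ Ω, ∀ z ∈ Ω, r2 x y → r1 x z → ∃ w ∈ Ω, r1 y w ∧ r2 z w := by
    intro x hx hSx y hy z hz hxy hxz
    obtain ⟨w, hw, a, b⟩ := H x hx hSx z hz y hy hxz hxy
    exact ⟨w, hw, b, a⟩
  have Us : ∀ w ∈ Ω, S w → ∀ w' ∈ Ω, r2 w w' → r1 w w' → w = w' :=
    fun w hw hSw w' hw' a b => U w hw hSw w' hw' b a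
  have sumL : ∀ y ∈ fib Ω r1 x, ∀ g : α → ℝ,
      ∑ u ∈ fib Ω r2 y, g u = ∑ z ∈ fib Ω r2 x, g (m y z) := by
    intro y hy g
    obtain ⟨hyO, hxy⟩ := Finset.mem_filter.mp hy
    exact rect_sum Ω r1 r2 h1 h2 S hS2 H U hx hSx hyO (hS1 x hx y hyO hSx hxy) hxy (m y)
      (fun z hz => hm y z hy hz) g
  have sumR : ∀ z ∈ fib Ω r2 x, ∀ g : α → ℝ,
      ∑ u ∈ fib Ω r1 z, g u = ∑ y ∈ fib Ω r1 x, g (m y z) := by
    intro z hz g
    obtain ⟨hzO, hxz⟩ := Finset.mem_filter.mp hz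
    exact rect_sum Ω r2 r1 h2 h1 S hS1 Hs Us hx hSx hzO (hS2 x hx z hzO hSx hxz) hxz
      (fun y => m y z) (fun y hy => by
        obtain ⟨a, b, c⟩ := hm y z hy hz
        exact ⟨a, c, b⟩) g
  have cardL : ∀ y ∈ fib Ω r1 x, ((fib Ω r2 y).card : ℝ) = ((fib Ω r2 x).card : ℝ) := by
    intro y hy
    have := sumL y hy (fun _ => (1 : ℝ))
    simpa using this
  have cardR : ∀ z ∈ fib Ω r2 x, ((fib Ω r1 z).card : ℝ) = ((fib Ω r1 x).card : ℝ) := by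
    intro z hz
    have := sumR z hz (fun _ => (1 : ℝ))
    simpa using this
  unfold cE
  have hL : ∑ y ∈ fib Ω r1 x, (∑ u ∈ fib Ω r2 y, f u) / ((fib Ω r2 y).card : ℝ) =
      ∑ y ∈ fib Ω r1 x, (∑ z ∈ fib Ω r2 x, f (m y z)) / ((fib Ω r2 x).card : ℝ) := by
    apply Finset.sum_congr rfl
    intro y hy
    rw [sumL y hy f, cardL y hy]
  have hR : ∑ z ∈ fib Ω r2 x, (∑ u ∈ fib Ω r1 z, f u) / ((fib Ω r1 z).card : ℝ) =
      ∑ z ∈ fib Ω r2 x, (∑ y ∈ fib Ω r1 x, f (m y z)) / ((fib Ω r1 x).card : ℝ) := by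
    apply Finset.sum_congr rfl
    intro z hz
    rw [sumR z hz f, cardR z hz]
  rw [hL, hR, ← Finset.sum_div, ← Finset.sum_div, Finset.sum_comm, div_div, div_div, mul_comm]

end AbsComm

end Vale.Agent.Lib.P335
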