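import Vale.Agent.Lib.P335F1.Tau
import Vale.Agent.Lib.P335G.AbsF1

/-!
# P335 (F1) on graphs
-/

namespace Vale.Agent.Lib.P335
open Finset
open scoped Classical

variable {n : ℕ}

/-- the hypothesis (KL) of the abstract inequality holds for the fibres of two disjoint pairs -/
theorem KL_graph (dg : Fin n → ℕ) {a b c d : Fin n} (hab : a ≠ b) (hac : a ≠ c) (had : a ≠ d)
    (hbc : b ≠ c) (hbd : b ≠ d) (hcd : c ≠ d) :
    KL (realizations n dg) (relV {a, b}) (relV {c, d}) (fun G => Av G a b c d) := by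
  intro x hx x' hx' hxx hav
  have hxx' : relV {c, d} x' x := (relV_equiv _).symm hxx
  refine ⟨klMap a b c d x x', ⟨?_, ?_, ?_⟩, ?_⟩
  · intro y hy
    obtain ⟨hyO, hxy⟩ := Finset.mem_filter.mp (Finset.mem_coe.mp hy)
    exact Finset.mem_coe.mpr (Finset.mem_filter.mpr
      ⟨klMap_mem hab hac had hbc hbd hcd hx hx' hyO hxx hav hxy, klMap_relV_ab a b c d x x' y⟩)
  · intro y hy z hz hyz
    obtain ⟨_, hxy⟩ := Finset.mem_filter.mp (Finset.mem_coe.mp hy)
    obtain ⟨_, hxz⟩ := Finset.mem_filter.mp (Finset.mem_coe.mp hz)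
    rw [← klMap_klMap hac had hbc hbd (x' := x') hxy, ← klMap_klMap hac had hbc hbd (x' := x') hxz,
      hyz]
  · intro z hz
    obtain ⟨hzO, hxz⟩ := Finset.mem_filter.mp (Finset.mem_coe.mp hz)
    refine ⟨klMap a b c d x' x z, ?_, klMap_klMap hac had hbc hbd hxz⟩
    exact Finset.mem_coe.mpr (Finset.mem_filter.mpr
      ⟨klMap_mem hab hac had hbc hbd hcd hx' hx hzO hxx' hav.symm hxz,
        klMap_relV_ab a b c d x' x z⟩)
  · intro y hy
    obtain ⟨_, hxy⟩ := Finset.mem_filter.mp hy
    exact ⟨klMap_relV_cd a b c d hxx hxy, klMap_av hac had hbc hbd x x' y⟩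

/-- the quantity `N_{ab|cd}(f)` -/
noncomputable def Nq (dg : Fin n → ℕ) (a b c d : Fin n) (f : SimpleGraph (Fin n) → ℝ) : ℝ :=
  ∑ G ∈ (realizations n dg).filter (fun G => Av G a b c d),
    (cE (realizations n dg) (cutRel (relV {a, b}) (fun G => Av G a b c d)) f G
      - cE (realizations n dg) (relV {a, b}) f G) ^ 2

theorem cE_congr_rel {α : Type} [DecidableEq α] (Ω : Finset α) (r r' : α → α → Prop)
    [DecidableRel r] [DecidableRel r'] (h : ∀ x y, r x y ↔ r' x y) (f : α → ℝ) (x : α) :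
    cE Ω r f x = cE Ω r' f x := by
  have : fib Ω r x = fib Ω r' x := by
    unfold fib
    exact Finset.filter_congr fun y _ => h x y
  unfold cE
  rw [this]

theorem Nq_swap_eq (dg : Fin n → ℕ) (a b c d : Fin n) (f : SimpleGraph (Fin n) → ℝ) :
    Nq dg c d a b f = ∑ G ∈ (realizations n dg).filter (fun G => Av G a b c d),
    (cE (realizations n dg) (cutRel (relV {c, d}) (fun G => Av G a b c d)) f G
      - cE (realizations n dg) (relV {c, d}) f G) ^ 2 := by
  unfold Nq
  rw [Finset.filter_congr (fun G _ => Av_swap G a b c d)]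
  apply Finset.sum_congr rfl
  intro G _
  rw [cE_congr_rel (realizations n dg) (cutRel (relV {c, d}) (fun G => Av G c d a b))
    (cutRel (relV {c, d}) (fun G => Av G a b c d))]
  intro x y
  simp only [cutRel, Av_swap x a b c d, Av_swap y a b c d]

/-- (F1) for two disjoint pairs `ab`, `cd` -/
theorem F1_graph_tau (dg : Fin n → ℕ) {a b c d : Fin n} (hab : a ≠ b) (hac : a ≠ c) (had : a ≠ d)
    (hbc : b ≠ c) (hbd : b ≠ d) (hcd : c ≠ d) (f : SimpleGraph (Fin n) → ℝ) :
    ∑ G ∈ realizations n dg, ((f G - f (tauG a b c d G)) / 2) ^ 2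
      - (1 / 2) * (Nq dg a b c d f + Nq dg c d a b f)
      ≤ ∑ G ∈ realizations n dg, (f G - cE (realizations n dg) (relV {a, b}) f G) *
          (f G - cE (realizations n dg) (relV {c, d}) f G) := by
  have hS : (fun G : SimpleGraph (Fin n) => Av G c d a b) = fun G => Av G a b c d := by
    funext G
    exact propext (Av_swap G a b c d)
  have hKL21 : KL (realizations n dg) (relV {c, d}) (relV {a, b}) (fun G => Av G a b c d) := by
    have := KL_graph dg hcd hac.symm hbc.symm had.symm hbd.symm hab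
    rw [hS] at this
    exact this
  have key := F1abs (realizations n dg) (relV {a, b}) (relV {c, d}) (fun G => Av G a b c d)
    (relV_equiv _) (relV_equiv _) (tauG a b c d)
    (fun G hG => tauG_mem hab hac had hbc hbd hcd hG)
    (fun G _ => tauG_tauG hab hac had hbc hbd hcd G)
    (fun G _ => tauG_relV_ab hab hac had hbc hbd hcd G)
    (fun G _ => tauG_relV_cd hab hac had hbc hbd hcd G)
    (fun G _ => tauG_av hab hac had hbc hbd hcd G)
    (KL_graph dg hab hac had hbc hbd hcd) hKL21
    (fun G hG hav => av_supp hab hac had hbc hbd hcd hG hav) f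
  rw [Nq_swap_eq dg a b c d f]
  unfold Nq
  exact key

end Vale.Agent.Lib.P335
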