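import Vale.Agent.Lib.P335.GSplit

/-!
# P335 (F1): the graph lemma (KL)

`relV T G H`: the graphs agree on all pairs that do not meet `T`.
-/

namespace Vale.Agent.Lib.P335
open Finset
open scoped Classical

variable {n : ℕ}

/-- `G` and `H` agree on all pairs that do not meet `T` -/
def relV (T : Finset (Fin n)) (G H : SimpleGraph (Fin n)) : Prop :=
  ∀ u v, u ∉ T → v ∉ T → (G.Adj u v ↔ H.Adj u v)

theorem relV_equiv (T : Finset (Fin n)) : Equivalence (relV T) where
  refl _ := fun _ _ _ _ => Iff.rfl
  symm h := fun u v hu hv => (h u v hu hv).symm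
  trans h h' := fun u v hu hv => (h u v hu hv).trans (h' u v hu hv)

/-- the switch on the four-cycle `a c b d` is available -/
def Av (G : SimpleGraph (Fin n)) (a b c d : Fin n) : Prop :=
  (G.Adj a c ∧ G.Adj b d ∧ ¬ G.Adj a d ∧ ¬ G.Adj b c) ∨
    (¬ G.Adj a c ∧ ¬ G.Adj b d ∧ G.Adj a d ∧ G.Adj b c)

theorem adjInd_eq_one_iff (G : SimpleGraph (Fin n)) (u v : Fin n) : adjInd G u v = 1 ↔ G.Adj u v := by
  unfold adjInd
  split_ifs with h <;> simp [h]

theorem mem_real_iff {d : Fin n → ℕ} {G : SimpleGraph (Fin n)} :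
    G ∈ realizations n d ↔ ∀ v, ∑ w, adjInd G v w = d v := by
  unfold realizations adjInd
  rw [Finset.mem_filter]
  simp only [Finset.mem_univ, true_and, Finset.card_filter]

/-- number of neighbours of `v` among `a`, `b` -/
noncomputable def kap (G : SimpleGraph (Fin n)) (a b v : Fin n) : ℕ := adjInd G v a + adjInd G v b

theorem sum_split_pair (a b : Fin n) (hab : a ≠ b) (g : Fin n → ℕ) :
    ∑ w, g w = g a + g b + ∑ w ∈ (univ.erase a).erase b, g w := by
  rw [← Finset.add_sum_erase univ g (Finset.mem_univ a),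
    ← Finset.add_sum_erase (univ.erase a) g (Finset.mem_erase.mpr ⟨hab.symm, Finset.mem_univ b⟩)]
  ring

/-- two realizations which agree off `{a,b}` have the same `kap` at every other vertex -/
theorem kap_eq_of_relV {d : Fin n → ℕ} {G H : SimpleGraph (Fin n)} (hG : G ∈ realizations n d)
    (hH : H ∈ realizations n d) {a b : Fin n} (hab : a ≠ b) (h : relV {a, b} G H) {v : Fin n}
    (hva : v ≠ a) (hvb : v ≠ b) : kap G a b v = kap H a b v := by
  have h1 := mem_real_iff.mp hG v
  have h2 := mem_real_iff.mp hH v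
  rw [sum_split_pair a b hab] at h1 h2
  have h3 : ∑ w ∈ (univ.erase a).erase b, adjInd G v w = ∑ w ∈ (univ.erase a).erase b, adjInd H v w := by
    apply Finset.sum_congr rfl
    intro w hw
    rw [Finset.mem_erase, Finset.mem_erase] at hw
    unfold adjInd
    have := h v w (by simp [hva, hvb]) (by simp [hw.1, hw.2.1])
    simp only [this]
  unfold kap
  omega

/-- the permutation used in the transport map -/
noncomputable def klPerm (a b c d : Fin n) (x x' : SimpleGraph (Fin n)) : Equiv.Perm (Fin n) :=
  if kap x a b c = kap x' a b c then 1 else Equiv.swap c d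

theorem klPerm_symm (a b c d : Fin n) (x x' : SimpleGraph (Fin n)) :
    klPerm a b c d x x' = klPerm a b c d x' x := by
  unfold klPerm
  by_cases h : kap x a b c = kap x' a b c
  · rw [if_pos h, if_pos h.symm]
  · rw [if_neg h, if_neg (fun hh => h hh.symm)]

theorem klPerm_invol (a b c d : Fin n) (x x' : SimpleGraph (Fin n)) (u : Fin n) :
    klPerm a b c d x x' (klPerm a b c d x x' u) = u := by
  unfold klPerm
  split_ifs
  · rfl
  · exact Equiv.swap_apply_self c d u

theorem klPerm_fix (a b c d : Fin n) (x x' : SimpleGraph (Fin n)) {u : Fin n} (hc : u ≠ c)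
    (hd : u ≠ d) : klPerm a b c d x x' u = u := by
  unfold klPerm
  split_ifs
  · rfl
  · exact Equiv.swap_apply_of_ne_of_ne hc hd

/-- the transport map: pairs meeting `{a,b}` come from `y` (with `c`, `d` possibly exchanged),
all other pairs from `x'` -/
noncomputable def klMap (a b c d : Fin n) (x x' y : SimpleGraph (Fin n)) : SimpleGraph (Fin n) where
  Adj u v := if (u = a ∨ u = b) ∨ (v = a ∨ v = b) then
      y.Adj (klPerm a b c d x x' u) (klPerm a b c d x x' v) else x'.Adj u v
  symm := ⟨by
    intro u v h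
    by_cases h1 : (u = a ∨ u = b) ∨ (v = a ∨ v = b)
    · have h2 : (v = a ∨ v = b) ∨ (u = a ∨ u = b) := h1.symm
      rw [if_pos h1] at h
      rw [if_pos h2]
      exact h.symm
    · have h2 : ¬ ((v = a ∨ v = b) ∨ (u = a ∨ u = b)) := fun hh => h1 hh.symm
      rw [if_neg h1] at h
      rw [if_neg h2]
      exact h.symm⟩
  loopless := ⟨by
    intro u h
    split_ifs at h
    · exact y.loopless.irrefl _ h
    · exact x'.loopless.irrefl _ h⟩

theorem klMap_adj_of (a b c d : Fin n) (x x' y : SimpleGraph (Fin n)) {u v : Fin n}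
    (h : (u = a ∨ u = b) ∨ (v = a ∨ v = b)) :
    (klMap a b c d x x' y).Adj u v ↔ y.Adj (klPerm a b c d x x' u) (klPerm a b c d x x' v) := by
  change (if (u = a ∨ u = b) ∨ (v = a ∨ v = b) then
      y.Adj (klPerm a b c d x x' u) (klPerm a b c d x x' v) else x'.Adj u v) ↔ _
  rw [if_pos h]

theorem klMap_adj_off (a b c d : Fin n) (x x' y : SimpleGraph (Fin n)) {u v : Fin n}
    (h : ¬ ((u = a ∨ u = b) ∨ (v = a ∨ v = b))) :
    (klMap a b c d x x' y).Adj u v ↔ x'.Adj u v := by
  change (if (u = a ∨ u = b) ∨ (v = a ∨ v = b) then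
      y.Adj (klPerm a b c d x x' u) (klPerm a b c d x x' v) else x'.Adj u v) ↔ _
  rw [if_neg h]

theorem av_iff_adjInd (G : SimpleGraph (Fin n)) (a b c d : Fin n) : Av G a b c d ↔
    (adjInd G a c = 1 ∧ adjInd G b d = 1 ∧ adjInd G a d = 0 ∧ adjInd G b c = 0) ∨
    (adjInd G a c = 0 ∧ adjInd G b d = 0 ∧ adjInd G a d = 1 ∧ adjInd G b c = 1) := by
  have e : ∀ u v, adjInd G u v = 0 ↔ ¬ G.Adj u v := by
    intro u v
    unfold adjInd
    split_ifs with h <;> simp [h]
  unfold Av
  simp only [adjInd_eq_one_iff, e]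

/-- the column sums of the block are matched by the permutation -/
theorem kl_kap {dg : Fin n → ℕ} {a b c d : Fin n} (hac : a ≠ c) (had : a ≠ d)
    (hbc : b ≠ c) (hbd : b ≠ d) (hcd : c ≠ d) {x x' : SimpleGraph (Fin n)}
    (hx : x ∈ realizations n dg) (hx' : x' ∈ realizations n dg) (hxx : relV {c, d} x x')
    (hav : Av x a b c d ↔ Av x' a b c d) (v : Fin n) :
    kap x a b (klPerm a b c d x x' v) = kap x' a b v := by
  have r1 := kap_eq_of_relV hx hx' hcd hxx hac had
  have r2 := kap_eq_of_relV hx hx' hcd hxx hbc hbd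
  rw [av_iff_adjInd, av_iff_adjInd] at hav
  unfold kap at r1 r2
  have b1 := adjInd_le_one x a c
  have b2 := adjInd_le_one x a d
  have b3 := adjInd_le_one x b c
  have b4 := adjInd_le_one x b d
  have b5 := adjInd_le_one x' a c
  have b6 := adjInd_le_one x' a d
  have b7 := adjInd_le_one x' b c
  have b8 := adjInd_le_one x' b d
  by_cases hvc : v = c
  · subst hvc
    unfold klPerm
    by_cases h : kap x a b v = kap x' a b v
    · rw [if_pos h]
      exact h
    · rw [if_neg h, Equiv.swap_apply_left]
      unfold kap at h ⊢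
      rw [adjInd_comm x v a, adjInd_comm x v b, adjInd_comm x' v a, adjInd_comm x' v b] at h
      rw [adjInd_comm x d a, adjInd_comm x d b, adjInd_comm x' v a, adjInd_comm x' v b]
      omega
  · by_cases hvd : v = d
    · subst hvd
      unfold klPerm
      by_cases h : kap x a b c = kap x' a b c
      · rw [if_pos h]
        unfold kap at h ⊢
        rw [adjInd_comm x c a, adjInd_comm x c b, adjInd_comm x' c a, adjInd_comm x' c b] at h
        simp only [Equiv.Perm.coe_one, id_eq]
        rw [adjInd_comm x v a, adjInd_comm x v b, adjInd_comm x' v a, adjInd_comm x' v b]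
        omega
      · rw [if_neg h, Equiv.swap_apply_right]
        unfold kap at h ⊢
        rw [adjInd_comm x c a, adjInd_comm x c b, adjInd_comm x' c a, adjInd_comm x' c b] at h
        rw [adjInd_comm x c a, adjInd_comm x c b, adjInd_comm x' v a, adjInd_comm x' v b]
        omega
    · rw [klPerm_fix a b c d x x' hvc hvd]
      unfold kap adjInd
      have e1 := hxx v a (by simp [hvc, hvd]) (by simp [hac, had])
      have e2 := hxx v b (by simp [hvc, hvd]) (by simp [hbc, hbd])
      simp only [e1, e2]

theorem adjInd_klMap_of (a b c d : Fin n) (x x' y : SimpleGraph (Fin n)) {u v : Fin n}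
    (h : (u = a ∨ u = b) ∨ (v = a ∨ v = b)) :
    adjInd (klMap a b c d x x' y) u v
      = adjInd y (klPerm a b c d x x' u) (klPerm a b c d x x' v) := by
  unfold adjInd
  simp only [klMap_adj_of a b c d x x' y h]

theorem adjInd_klMap_off (a b c d : Fin n) (x x' y : SimpleGraph (Fin n)) {u v : Fin n}
    (h : ¬ ((u = a ∨ u = b) ∨ (v = a ∨ v = b))) :
    adjInd (klMap a b c d x x' y) u v = adjInd x' u v := by
  unfold adjInd
  simp only [klMap_adj_off a b c d x x' y h]

/-- (KL a1) the transported graph is a realization -/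
theorem klMap_mem {dg : Fin n → ℕ} {a b c d : Fin n} (hab : a ≠ b) (hac : a ≠ c) (had : a ≠ d)
    (hbc : b ≠ c) (hbd : b ≠ d) (hcd : c ≠ d) {x x' y : SimpleGraph (Fin n)}
    (hx : x ∈ realizations n dg) (hx' : x' ∈ realizations n dg) (hy : y ∈ realizations n dg)
    (hxx : relV {c, d} x x') (hav : Av x a b c d ↔ Av x' a b c d) (hxy : relV {a, b} x y) :
    klMap a b c d x x' y ∈ realizations n dg := by
  rw [mem_real_iff]
  intro v
  have fa : klPerm a b c d x x' a = a := klPerm_fix a b c d x x' hac had
  have fb : klPerm a b c d x x' b = b := klPerm_fix a b c d x x' hbc hbd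
  by_cases hv : v = a ∨ v = b
  · have h1 : ∀ w, adjInd (klMap a b c d x x' y) v w = adjInd y v (klPerm a b c d x x' w) := by
      intro w
      rw [adjInd_klMap_of a b c d x x' y (Or.inl hv)]
      rcases hv with rfl | rfl
      · rw [fa]
      · rw [fb]
    rw [Finset.sum_congr rfl (fun w _ => h1 w),
      Equiv.sum_comp (klPerm a b c d x x') (fun w => adjInd y v w)]
    exact mem_real_iff.mp hy v
  · have hva : v ≠ a := fun h => hv (Or.inl h)
    have hvb : v ≠ b := fun h => hv (Or.inr h)
    have h2 := mem_real_iff.mp hx' v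
    rw [sum_split_pair a b hab] at h2 ⊢
    have h3 : ∑ w ∈ (univ.erase a).erase b, adjInd (klMap a b c d x x' y) v w
        = ∑ w ∈ (univ.erase a).erase b, adjInd x' v w := by
      apply Finset.sum_congr rfl
      intro w hw
      rw [Finset.mem_erase, Finset.mem_erase] at hw
      apply adjInd_klMap_off
      rintro (h | h)
      · exact hv h
      · rcases h with h | h
        · exact hw.2.1 h
        · exact hw.1 h
    rw [h3, adjInd_klMap_of a b c d x x' y (Or.inr (Or.inl rfl)),
      adjInd_klMap_of a b c d x x' y (Or.inr (Or.inr rfl)), fa, fb]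
    have hpa : klPerm a b c d x x' v ≠ a := by
      intro h
      apply hva
      have := klPerm_invol a b c d x x' v
      rw [h, fa] at this
      exact this.symm
    have hpb : klPerm a b c d x x' v ≠ b := by
      intro h
      apply hvb
      have := klPerm_invol a b c d x x' v
      rw [h, fb] at this
      exact this.symm
    have h4 := kap_eq_of_relV hx hy hab hxy hpa hpb
    have h5 := kl_kap hac had hbc hbd hcd hx hx' hxx hav v
    unfold kap at h4 h5
    omega

/-- (KL a2) -/
theorem klMap_relV_ab (a b c d : Fin n) (x x' y : SimpleGraph (Fin n)) :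
    relV {a, b} x' (klMap a b c d x x' y) := by
  intro u v hu hv
  simp only [Finset.mem_insert, Finset.mem_singleton] at hu hv
  exact (klMap_adj_off a b c d x x' y (by tauto)).symm

/-- (KL a3) -/
theorem klMap_relV_cd (a b c d : Fin n) {x x' y : SimpleGraph (Fin n)}
    (hxx : relV {c, d} x x') (hxy : relV {a, b} x y) :
    relV {c, d} y (klMap a b c d x x' y) := by
  intro u v hu hv
  have hu' := hu
  have hv' := hv
  simp only [Finset.mem_insert, Finset.mem_singleton, not_or] at hu' hv'
  by_cases h : (u = a ∨ u = b) ∨ (v = a ∨ v = b)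
  · rw [klMap_adj_of a b c d x x' y h, klPerm_fix a b c d x x' hu'.1 hu'.2,
      klPerm_fix a b c d x x' hv'.1 hv'.2]
  · rw [klMap_adj_off a b c d x x' y h, ← hxx u v hu hv]
    exact (hxy u v (by simp only [Finset.mem_insert, Finset.mem_singleton]; tauto)
      (by simp only [Finset.mem_insert, Finset.mem_singleton]; tauto)).symm

/-- (KL a4) -/
theorem klMap_av {a b c d : Fin n} (hac : a ≠ c) (had : a ≠ d) (hbc : b ≠ c) (hbd : b ≠ d)
    (x x' y : SimpleGraph (Fin n)) :
    Av y a b c d ↔ Av (klMap a b c d x x' y) a b c d := by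
  have fa : klPerm a b c d x x' a = a := klPerm_fix a b c d x x' hac had
  have fb : klPerm a b c d x x' b = b := klPerm_fix a b c d x x' hbc hbd
  unfold Av
  rw [klMap_adj_of a b c d x x' y (u := a) (v := c) (Or.inl (Or.inl rfl)),
    klMap_adj_of a b c d x x' y (u := a) (v := d) (Or.inl (Or.inl rfl)),
    klMap_adj_of a b c d x x' y (u := b) (v := c) (Or.inl (Or.inr rfl)),
    klMap_adj_of a b c d x x' y (u := b) (v := d) (Or.inl (Or.inr rfl)), fa, fb]
  unfold klPerm
  split_ifs
  · simp only [Equiv.Perm.coe_one, id_eq]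
  · rw [Equiv.swap_apply_left, Equiv.swap_apply_right]
    tauto

/-- (KL b) the transport maps for `(x,x')` and `(x',x)` are inverse to each other -/
theorem klMap_klMap {a b c d : Fin n} (hac : a ≠ c) (had : a ≠ d) (hbc : b ≠ c) (hbd : b ≠ d)
    {x x' y : SimpleGraph (Fin n)} (hxy : relV {a, b} x y) :
    klMap a b c d x' x (klMap a b c d x x' y) = y := by
  have fa : klPerm a b c d x x' a = a := klPerm_fix a b c d x x' hac had
  have fb : klPerm a b c d x x' b = b := klPerm_fix a b c d x x' hbc hbd
  ext u v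
  by_cases h : (u = a ∨ u = b) ∨ (v = a ∨ v = b)
  · rw [klMap_adj_of a b c d x' x _ h, klPerm_symm a b c d x' x]
    have h' : (klPerm a b c d x x' u = a ∨ klPerm a b c d x x' u = b) ∨
        (klPerm a b c d x x' v = a ∨ klPerm a b c d x x' v = b) := by
      rcases h with (rfl | rfl) | (rfl | rfl)
      · exact Or.inl (Or.inl fa)
      · exact Or.inl (Or.inr fb)
      · exact Or.inr (Or.inl fa)
      · exact Or.inr (Or.inr fb)
    rw [klMap_adj_of a b c d x x' y h', klPerm_invol, klPerm_invol]
  · rw [klMap_adj_off a b c d x' x _ h]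
    exact hxy u v (by simp only [Finset.mem_insert, Finset.mem_singleton]; tauto)
      (by simp only [Finset.mem_insert, Finset.mem_singleton]; tauto)

/-- (KL c) off the available set, one of the two fibres misses the available set -/
theorem av_supp {dg : Fin n → ℕ} {a b c d : Fin n} (hab : a ≠ b) (hac : a ≠ c) (had : a ≠ d)
    (hbc : b ≠ c) (hbd : b ≠ d) (hcd : c ≠ d) {x : SimpleGraph (Fin n)}
    (hx : x ∈ realizations n dg) (hav : ¬ Av x a b c d) :
    (∀ y ∈ realizations n dg, relV {a, b} x y → ¬ Av y a b c d) ∨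
    (∀ y ∈ realizations n dg, relV {c, d} x y → ¬ Av y a b c d) := by
  rw [av_iff_adjInd] at hav
  have b1 := adjInd_le_one x a c
  have b2 := adjInd_le_one x a d
  have b3 := adjInd_le_one x b c
  have b4 := adjInd_le_one x b d
  by_cases hcol : adjInd x a c + adjInd x b c = 1 ∧ adjInd x a d + adjInd x b d = 1
  · right
    intro y hy hxy hy'
    rw [av_iff_adjInd] at hy'
    have r1 := kap_eq_of_relV hx hy hcd hxy hac had
    have r2 := kap_eq_of_relV hx hy hcd hxy hbc hbd
    unfold kap at r1 r2
    omega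
  · left
    intro y hy hxy hy'
    rw [av_iff_adjInd] at hy'
    have r1 := kap_eq_of_relV hx hy hab hxy hac.symm hbc.symm
    have r2 := kap_eq_of_relV hx hy hab hxy had.symm hbd.symm
    unfold kap at r1 r2
    rw [adjInd_comm x c a, adjInd_comm x c b, adjInd_comm y c a, adjInd_comm y c b] at r1
    rw [adjInd_comm x d a, adjInd_comm x d b, adjInd_comm y d a, adjInd_comm y d b] at r2
    omega

end Vale.Agent.Lib.P335
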