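import Vale.Agent.Lib.P335F1.Abs

/-!
# Averaging operators as elements of an endomorphism ring
-/

namespace Vale.Agent.Lib.P335
open Finset

section Ops
variable {α : Type} [DecidableEq α] (Ω : Finset α)

/-- restriction of a function to `Ω` -/
def resF (F : α → ℝ) : Ω → ℝ := fun x => F x.1

/-- extension by zero -/
noncomputable def extF (u : Ω → ℝ) : α → ℝ := fun y => if h : y ∈ Ω then u ⟨y, h⟩ else 0

theorem extF_apply (u : Ω → ℝ) (x : Ω) : extF Ω u x.1 = u x := by
  unfold extF
  rw [dif_pos x.2]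

theorem extF_resF (F : α → ℝ) : ∀ y ∈ Ω, extF Ω (resF Ω F) y = F y := by
  intro y hy
  unfold extF resF
  rw [dif_pos hy]

theorem resF_extF (u : Ω → ℝ) : resF Ω (extF Ω u) = u := by
  funext x
  exact extF_apply Ω u x

/-- the inner product on functions on `Ω` -/
def ip (u v : Ω → ℝ) : ℝ := ∑ x, u x * v x

theorem ip_resF (F G : α → ℝ) : ip Ω (resF Ω F) (resF Ω G) = ∑ x ∈ Ω, F x * G x := by
  unfold ip resF
  exact Finset.sum_coe_sort Ω (fun x => F x * G x)

theorem ip_add_right (u v w : Ω → ℝ) : ip Ω u (v + w) = ip Ω u v + ip Ω u w := by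
  unfold ip
  rw [← Finset.sum_add_distrib]
  exact Finset.sum_congr rfl fun x _ => by simp only [Pi.add_apply]; ring

theorem ip_self_nonneg (u : Ω → ℝ) : 0 ≤ ip Ω u u :=
  Finset.sum_nonneg fun x _ => mul_self_nonneg (u x)

theorem ip_comm (u v : Ω → ℝ) : ip Ω u v = ip Ω v u := by
  unfold ip
  exact Finset.sum_congr rfl fun x _ => mul_comm _ _

/-- the averaging operator as a linear endomorphism -/
noncomputable def opE (r : α → α → Prop) [DecidableRel r] : Module.End ℝ (Ω → ℝ) where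
  toFun u := resF Ω (cE Ω r (extF Ω u))
  map_add' u v := by
    funext x
    have h : cE Ω r (extF Ω (u + v)) x.1 = cE Ω r (extF Ω u + extF Ω v) x.1 := by
      apply cE_ext
      intro y hy
      simp only [extF, dif_pos hy, Pi.add_apply]
    simp only [resF, Pi.add_apply]
    rw [h, cE_add]
  map_smul' c u := by
    funext x
    have h : cE Ω r (extF Ω (c • u)) x.1 = cE Ω r (c • extF Ω u) x.1 := by
      apply cE_ext
      intro y hy
      simp only [extF, dif_pos hy, Pi.smul_apply]
    simp only [resF, Pi.smul_apply, RingHom.id_apply, smul_eq_mul]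
    rw [h, cE_smul]

theorem opE_resF (r : α → α → Prop) [DecidableRel r] (F : α → ℝ) :
    opE Ω r (resF Ω F) = resF Ω (cE Ω r F) := by
  funext x
  change cE Ω r (extF Ω (resF Ω F)) x.1 = cE Ω r F x.1
  exact cE_ext Ω r _ _ (extF_resF Ω F) x.1

/-- symmetric operators -/
def SymOp (T : Module.End ℝ (Ω → ℝ)) : Prop := ∀ u v, ip Ω (T u) v = ip Ω u (T v)

theorem opE_symm (r : α → α → Prop) [DecidableRel r] (hr : Equivalence r) : SymOp Ω (opE Ω r) := by
  intro u v
  have hu : u = resF Ω (extF Ω u) := (resF_extF Ω u).symm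
  have hv : v = resF Ω (extF Ω v) := (resF_extF Ω v).symm
  rw [hu, hv, opE_resF, opE_resF, ip_resF, ip_resF]
  exact (cE_symm Ω r hr (extF Ω u) (extF Ω v)).symm

theorem opE_idem (r : α → α → Prop) [DecidableRel r] (hr : Equivalence r) :
    opE Ω r * opE Ω r = opE Ω r := by
  apply LinearMap.ext
  intro u
  have hu : u = resF Ω (extF Ω u) := (resF_extF Ω u).symm
  rw [Module.End.mul_apply, hu, opE_resF, opE_resF]
  funext x
  exact cE_idem Ω r hr _ x.2

theorem opE_fine_coarse (q Q : α → α → Prop) [DecidableRel q] [DecidableRel Q]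
    (hq : Equivalence q) (hQ : Equivalence Q) (hle : ∀ x y, q x y → Q x y) :
    opE Ω q * opE Ω Q = opE Ω Q := by
  apply LinearMap.ext
  intro u
  have hu : u = resF Ω (extF Ω u) := (resF_extF Ω u).symm
  rw [Module.End.mul_apply, hu, opE_resF, opE_resF]
  funext x
  exact cE_cE_of_le Ω q Q hq hQ hle _ x.2

theorem ip_eq_zero_imp (u : Ω → ℝ) (h : ∀ v, ip Ω v u = 0) : u = 0 := by
  have h0 := h u
  unfold ip at h0
  funext x
  have := (Finset.sum_eq_zero_iff_of_nonneg (fun y _ => mul_self_nonneg (u y))).1 h0 x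
    (Finset.mem_univ x)
  simpa using this

theorem ip_sub_right (u v w : Ω → ℝ) : ip Ω u (v - w) = ip Ω u v - ip Ω u w := by
  unfold ip
  rw [← Finset.sum_sub_distrib]
  exact Finset.sum_congr rfl fun x _ => by simp only [Pi.sub_apply]; ring

/-- adjoint of a product of symmetric operators -/
theorem symOp_mul_swap {S T : Module.End ℝ (Ω → ℝ)} (hS : SymOp Ω S) (hT : SymOp Ω T)
    {R : Module.End ℝ (Ω → ℝ)} (hR : SymOp Ω R) (h : S * T = R) : T * S = R := by
  apply LinearMap.ext
  intro u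
  have : (T * S) u - R u = 0 := by
    apply ip_eq_zero_imp
    intro v
    rw [ip_sub_right, Module.End.mul_apply, ← hT, ← hS, ← hR, ← h, Module.End.mul_apply, sub_self]
  exact sub_eq_zero.mp this

theorem opE_coarse_fine (q Q : α → α → Prop) [DecidableRel q] [DecidableRel Q]
    (hq : Equivalence q) (hQ : Equivalence Q) (hle : ∀ x y, q x y → Q x y) :
    opE Ω Q * opE Ω q = opE Ω Q :=
  symOp_mul_swap Ω (opE_symm Ω q hq) (opE_symm Ω Q hQ) (opE_symm Ω Q hQ)
    (opE_fine_coarse Ω q Q hq hQ hle)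

theorem opE_commute (r1 r2 : α → α → Prop) [DecidableRel r1] [DecidableRel r2]
    (h : ∀ (f : α → ℝ), ∀ x ∈ Ω, cE Ω r1 (cE Ω r2 f) x = cE Ω r2 (cE Ω r1 f) x) :
    Commute (opE Ω r1) (opE Ω r2) := by
  apply LinearMap.ext
  intro u
  have hu : u = resF Ω (extF Ω u) := (resF_extF Ω u).symm
  rw [Module.End.mul_apply, Module.End.mul_apply, hu, opE_resF, opE_resF, opE_resF, opE_resF]
  funext x
  exact h _ x.1 x.2

theorem symOp_one : SymOp Ω 1 := fun _ _ => rfl

theorem SymOp.sub {S T : Module.End ℝ (Ω → ℝ)} (hS : SymOp Ω S) (hT : SymOp Ω T) :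
    SymOp Ω (S - T) := by
  intro u v
  rw [LinearMap.sub_apply, LinearMap.sub_apply, ip_sub_right, ip_comm, ip_sub_right,
    ip_comm, hS, ip_comm Ω v, hT]

/-- the product of two commuting symmetric idempotents is positive semidefinite -/
theorem ip_mul_nonneg {P Q : Module.End ℝ (Ω → ℝ)} (hP : SymOp Ω P) (hQ : SymOp Ω Q)
    (iP : P * P = P) (iQ : Q * Q = Q) (hc : Commute P Q) (u : Ω → ℝ) :
    0 ≤ ip Ω u ((P * Q) u) := by
  have key : (P * Q) = Q * P * (P * Q) := by
    have hc' : P * Q = Q * P := hc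
    calc P * Q = (P * P) * (Q * Q) := by rw [iP, iQ]
      _ = P * (P * Q) * Q := by noncomm_ring
      _ = P * (Q * P) * Q := by rw [hc']
      _ = (P * Q) * (P * Q) := by noncomm_ring
      _ = Q * P * (P * Q) := by rw [hc']
  have : ip Ω u ((P * Q) u) = ip Ω ((P * Q) u) ((P * Q) u) := by
    conv_lhs => rw [key]
    rw [Module.End.mul_apply, Module.End.mul_apply Q P, ← hQ, ← hP]
    rfl
  rw [this]
  exact ip_self_nonneg Ω _

end Ops

end Vale.Agent.Lib.P335
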