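import Vale.Agent.Lib.P335F1.KL
import Vale.Agent.Lib.P335G.GConn

/-!
# P335 (F1): the switch involution on the four-cycle `a c b d`
-/

namespace Vale.Agent.Lib.P335
open Finset
open scoped Classical

variable {n : ℕ}

/-- the switch involution on the four-cycle `a c b d`; the identity when the switch is not
available -/
noncomputable def tauG (a b c d : Fin n) (G : SimpleGraph (Fin n)) : SimpleGraph (Fin n) :=
  if h : a ≠ d ∧ c ≠ b ∧ a ≠ c ∧ d ≠ b then
    if G.Adj a c ∧ G.Adj b d ∧ ¬ G.Adj a d ∧ ¬ G.Adj b c then swG G a c d b h.1 h.2.1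
    else if ¬ G.Adj a c ∧ ¬ G.Adj b d ∧ G.Adj a d ∧ G.Adj b c then swG G a d c b h.2.2.1 h.2.2.2
    else G
  else G

theorem tauG_of_not_av (a b c d : Fin n) {G : SimpleGraph (Fin n)} (h : ¬ Av G a b c d) :
    tauG a b c d G = G := by
  unfold Av at h
  rw [not_or] at h
  unfold tauG
  split_ifs with h1 h2 h3
  · exact absurd h2 h.1
  · exact absurd h3 h.2
  · rfl
  · rfl

theorem prop_flip (A p1 p2 p3 p4 : Prop) [Decidable (p1 ∨ p2 ∨ p3 ∨ p4)] (h1 : p1 → A) (h2 : p2 → A) (h3 : p3 → ¬ A)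
    (h4 : p4 → ¬ A) :
    ((A ∧ ¬ p1 ∧ ¬ p2) ∨ p3 ∨ p4) ↔ (if p1 ∨ p2 ∨ p3 ∨ p4 then ¬ A else A) := by
  split_ifs with hh
  · tauto
  · tauto

theorem prop_flip' (A p1 p2 p3 p4 : Prop) [Decidable (p1 ∨ p2 ∨ p3 ∨ p4)] (h1 : p1 → ¬ A) (h2 : p2 → ¬ A) (h3 : p3 → A)
    (h4 : p4 → A) :
    ((A ∧ ¬ p3 ∧ ¬ p4) ∨ p1 ∨ p2) ↔ (if p1 ∨ p2 ∨ p3 ∨ p4 then ¬ A else A) := by
  split_ifs with hh
  · tauto
  · tauto

theorem tauG_one {a b c d : Fin n} (hac : a ≠ c) (had : a ≠ d) (hbc : b ≠ c) (hbd : b ≠ d)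
    {G : SimpleGraph (Fin n)} (h : G.Adj a c ∧ G.Adj b d ∧ ¬ G.Adj a d ∧ ¬ G.Adj b c) :
    tauG a b c d G = swG G a c d b had hbc.symm := by
  unfold tauG
  rw [dif_pos ⟨had, hbc.symm, hac, hbd.symm⟩, if_pos h]

theorem tauG_two {a b c d : Fin n} (hac : a ≠ c) (had : a ≠ d) (hbc : b ≠ c) (hbd : b ≠ d)
    {G : SimpleGraph (Fin n)} (h : ¬ G.Adj a c ∧ ¬ G.Adj b d ∧ G.Adj a d ∧ G.Adj b c) :
    tauG a b c d G = swG G a d c b hac hbd.symm := by
  unfold tauG
  have h' : ¬ (G.Adj a c ∧ G.Adj b d ∧ ¬ G.Adj a d ∧ ¬ G.Adj b c) := fun hh => h.1 hh.1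
  rw [dif_pos ⟨had, hbc.symm, hac, hbd.symm⟩, if_neg h', if_pos h]

section
variable {a b c d : Fin n} (hab : a ≠ b) (hac : a ≠ c) (had : a ≠ d) (hbc : b ≠ c) (hbd : b ≠ d)
  (hcd : c ≠ d)
include hab hac had hbc hbd hcd

theorem tauG_isSwitch {G : SimpleGraph (Fin n)} (h : Av G a b c d) :
    IsSwitch G (tauG a b c d G) := by
  rcases h with h | h
  · rw [tauG_one hac had hbc hbd h]
    exact swG_isSwitch G a c d b hac had hab hcd hbc.symm hbd.symm h.1 h.2.1.symm h.2.2.1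
      (fun hh => h.2.2.2 hh.symm)
  · rw [tauG_two hac had hbc hbd h]
    exact swG_isSwitch G a d c b had hac hab hcd.symm hbd.symm hbc.symm h.2.2.1 h.2.2.2.symm h.1
      (fun hh => h.2.1 hh.symm)

theorem tauG_mem {dg : Fin n → ℕ} {G : SimpleGraph (Fin n)} (hG : G ∈ realizations n dg) :
    tauG a b c d G ∈ realizations n dg := by
  by_cases h : Av G a b c d
  · rcases h with h | h
    · rw [tauG_one hac had hbc hbd h]
      exact swG_mem hG a c d b hac had hab hcd hbc.symm hbd.symm h.1 h.2.1.symm h.2.2.1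
        (fun hh => h.2.2.2 hh.symm)
    · rw [tauG_two hac had hbc hbd h]
      exact swG_mem hG a d c b had hac hab hcd.symm hbd.symm hbc.symm h.2.2.1 h.2.2.2.symm h.1
        (fun hh => h.2.1 hh.symm)
  · rw [tauG_of_not_av a b c d h]
    exact hG

/-- adjacency in `tauG G` when the switch is available: the four pairs of the cycle are flipped -/
theorem tauG_adj {G : SimpleGraph (Fin n)} (h : Av G a b c d) (u v : Fin n) :
    (tauG a b c d G).Adj u v ↔
      if s(u, v) = s(a, c) ∨ s(u, v) = s(b, d) ∨ s(u, v) = s(a, d) ∨ s(u, v) = s(b, c)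
      then ¬ G.Adj u v else G.Adj u v := by
  have e1 : s(u, v) = s(a, c) → (G.Adj u v ↔ G.Adj a c) := fun hh => gc_adj_congr G hh
  have e2 : s(u, v) = s(b, d) → (G.Adj u v ↔ G.Adj b d) := fun hh => gc_adj_congr G hh
  have e3 : s(u, v) = s(a, d) → (G.Adj u v ↔ G.Adj a d) := fun hh => gc_adj_congr G hh
  have e4 : s(u, v) = s(b, c) → (G.Adj u v ↔ G.Adj b c) := fun hh => gc_adj_congr G hh
  have s1 : s(d, b) = s(b, d) := Sym2.eq_swap
  have s2 : s(c, b) = s(b, c) := Sym2.eq_swap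
  rcases h with h | h
  · rw [tauG_one hac had hbc hbd h, swG_adj, s1, s2]
    exact prop_flip _ _ _ _ _ (fun q => (e1 q).mpr h.1) (fun q => (e2 q).mpr h.2.1)
      (fun q hA => h.2.2.1 ((e3 q).mp hA)) (fun q hA => h.2.2.2 ((e4 q).mp hA))
  · rw [tauG_two hac had hbc hbd h, swG_adj, s1, s2]
    exact prop_flip' _ _ _ _ _ (fun q hA => h.1 ((e1 q).mp hA)) (fun q hA => h.2.1 ((e2 q).mp hA))
      (fun q => (e3 q).mpr h.2.2.1) (fun q => (e4 q).mpr h.2.2.2)

theorem tauG_av (G : SimpleGraph (Fin n)) : Av G a b c d ↔ Av (tauG a b c d G) a b c d := by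
  by_cases h : Av G a b c d
  · have t1 := tauG_adj hab hac had hbc hbd hcd h a c
    have t2 := tauG_adj hab hac had hbc hbd hcd h b d
    have t3 := tauG_adj hab hac had hbc hbd hcd h a d
    have t4 := tauG_adj hab hac had hbc hbd hcd h b c
    simp only [true_or, or_true, if_true] at t1 t2 t3 t4
    unfold Av at h ⊢
    rw [t1, t2, t3, t4]
    tauto
  · rw [tauG_of_not_av a b c d h]

theorem tauG_tauG (G : SimpleGraph (Fin n)) : tauG a b c d (tauG a b c d G) = G := by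
  by_cases h : Av G a b c d
  · have h' := (tauG_av hab hac had hbc hbd hcd G).mp h
    ext u v
    rw [tauG_adj hab hac had hbc hbd hcd h' u v, tauG_adj hab hac had hbc hbd hcd h u v]
    split_ifs
    · exact not_not
    · exact Iff.rfl
  · rw [tauG_of_not_av a b c d h, tauG_of_not_av a b c d h]

theorem tauG_relV_ab (G : SimpleGraph (Fin n)) : relV {a, b} G (tauG a b c d G) := by
  by_cases h : Av G a b c d
  · intro u v hu hv
    simp only [Finset.mem_insert, Finset.mem_singleton, not_or] at hu hv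
    rw [tauG_adj hab hac had hbc hbd hcd h u v, if_neg]
    simp only [Sym2.eq_iff]
    tauto
  · rw [tauG_of_not_av a b c d h]
    exact (relV_equiv _).refl G

theorem tauG_relV_cd (G : SimpleGraph (Fin n)) : relV {c, d} G (tauG a b c d G) := by
  by_cases h : Av G a b c d
  · intro u v hu hv
    simp only [Finset.mem_insert, Finset.mem_singleton, not_or] at hu hv
    rw [tauG_adj hab hac had hbc hbd hcd h u v, if_neg]
    simp only [Sym2.eq_iff]
    tauto
  · rw [tauG_of_not_av a b c d h]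
    exact (relV_equiv _).refl G

end

theorem Av_swap (G : SimpleGraph (Fin n)) (a b c d : Fin n) : Av G c d a b ↔ Av G a b c d := by
  unfold Av
  rw [G.adj_comm c a, G.adj_comm d b, G.adj_comm c b, G.adj_comm d a]
  tauto

end Vale.Agent.Lib.P335
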